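import Vale.Agent.P146.R3.H49.Supp
import Vale.Agent.P146.R3.H49.Diff

/-!
# P146, row H3: the inverse Stieltjes transform of the law of `b (x - h(x))`, `h ≥ 0`
-/

open MeasureTheory Set Filter Topology Vale.Agent.P166

namespace Vale.Agent.P146.R2.H793.H3

open Vale.Agent.P146.R3 Vale.Agent.P146.R3.H49

variable {b d e : ℝ} {h : ℝ → ℝ}

lemma cont_f (b : ℝ) (hc : Continuous h) : Continuous fun x => b * (x - h x) := by fun_prop

lemma supp_sub (hc : Continuous h) {T : Set ℝ} (hT : IsClosed T)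
    (H : ∀ x ∈ Icc (-2 : ℝ) 2, b * (x - h x) ∈ T) :
    (sc.map fun x => b * (x - h x)).support ⊆ T := by
  refine Measure.support_subset_of_isClosed hT ?_
  show ∀ᵐ x ∂(sc.map fun x => b * (x - h x)), x ∈ T
  refine (ae_map_iff (cont_f b hc).measurable.aemeasurable (p := fun x => x ∈ T)
    hT.measurableSet).2 ?_
  filter_upwards [sc_ae] with x hx using H x hx

lemma isProb (hc : Continuous h) : IsProbabilityMeasure (sc.map fun x => b * (x - h x)) :=
  Measure.isProbabilityMeasure_map (cont_f b hc).measurable.aemeasurable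

lemma sSup_le (hc : Continuous h) {c : ℝ} (H : ∀ x ∈ Icc (-2 : ℝ) 2, b * (x - h x) ≤ c) :
    sSup (sc.map fun x => b * (x - h x)).support ≤ c := by
  have := isProb (b := b) hc
  exact csSup_le (Measure.nonempty_support (IsProbabilityMeasure.ne_zero _)) fun x hx =>
    supp_sub hc isClosed_Iic H hx

lemma sInv_le {μ : Measure ℝ} {y z : ℝ} (h1 : sSup μ.support < z)
    (h2 : ∫ x, (z - x)⁻¹ ∂μ ≤ y) : stInv μ y ≤ z :=
  csInf_le ⟨_, fun _ hz => hz.1.le⟩ ⟨h1, h2⟩

lemma integral_h (hc : Continuous h) (z : ℝ) :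
    ∫ x, (z - x)⁻¹ ∂(sc.map fun x => b * (x - h x)) = ∫ x, (z - b * (x - h x))⁻¹ ∂sc := by
  rw [integral_map (cont_f b hc).measurable.aemeasurable]
  exact ((measurable_const.sub measurable_id).inv).aestronglyMeasurable

lemma two_lt {y z : ℝ} (hz : z ∈ SS b 0 0 y) : 2 * b < z := by
  have h1 := (le_sSup_support b 0 0).trans_lt hz.1
  rw [hs_zero] at h1
  linarith

/-- **Row H3.** -/
theorem h3 (hb : 0 < b) (hc : Continuous h) (h0 : ∀ x ∈ Icc (-2 : ℝ) 2, 0 ≤ h x)
    (i : ∀ x ∈ Icc (-2 : ℝ) 2, x - h x < 2 - d) (ii : ∫ x, (2 - d - x + h x)⁻¹ ∂sc ≤ 1 - e) :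
    (∀ y, 0 < y → stInv (sc.map fun x => b * (x - h x)) y ≤ stInv (muS b 0 0) y) ∧
    (∀ y, 0 < y → 1 - e ≤ b * y →
      stInv (sc.map fun x => b * (x - h x)) y ≤ stInv (muS b 0 0) y - b * d) := by
  refine ⟨fun y hy => le_stInv hy fun z hz => ?_, fun y hy hey => ?_⟩
  · have hz2 := two_lt hz
    have hle : ∀ x ∈ Icc (-2 : ℝ) 2, b * (x - h x) ≤ b * x := fun x hx =>
      mul_le_mul_of_nonneg_left (by linarith [h0 x hx]) hb.le
    have hle2 : ∀ x ∈ Icc (-2 : ℝ) 2, b * x ≤ 2 * b := fun x hx => by nlinarith [hx.2]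
    refine sInv_le ((sSup_le hc fun x hx => (hle x hx).trans (hle2 x hx)).trans_lt hz2) ?_
    have hzz := hz.2
    rw [integral_muS] at hzz
    rw [integral_h hc]
    refine le_trans ?_ hzz
    have hpos : 0 < z - 2 * b := by linarith
    refine integral_mono_ae ?_ ?_ ?_
    · refine integrable_sc (C := (z - 2 * b)⁻¹)
        ((measurable_const.sub (cont_f b hc).measurable).inv) fun x hx => ?_
      have h1 : z - 2 * b ≤ z - b * (x - h x) := by linarith [hle x hx, hle2 x hx]
      rw [abs_of_pos (inv_pos.2 (hpos.trans_le h1))]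
      exact inv_anti₀ hpos h1
    · refine integrable_sc (C := (z - 2 * b)⁻¹)
        ((measurable_const.sub (continuous_hs b 0 0).measurable).inv) fun x hx => ?_
      rw [hs_zero]
      have h1 : z - 2 * b ≤ z - b * x := by linarith [hle2 x hx]
      rw [abs_of_pos (inv_pos.2 (hpos.trans_le h1))]
      exact inv_anti₀ hpos h1
    · filter_upwards [sc_ae] with x hx
      rw [hs_zero]
      exact inv_anti₀ (by linarith [hle2 x hx]) (by linarith [hle x hx])
  · have h1 : stInv (sc.map fun x => b * (x - h x)) y ≤ b * (2 - d) := by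
      refine sInv_le ?_ ?_
      · obtain ⟨x₀, hx₀, hmax⟩ := isCompact_Icc.exists_isMaxOn
          (nonempty_Icc.2 (by norm_num : (-2 : ℝ) ≤ 2)) (cont_f b hc).continuousOn
        exact (sSup_le hc fun x hx => hmax hx).trans_lt (mul_lt_mul_of_pos_left (i x₀ hx₀) hb)
      · rw [integral_h hc]
        have h2 : (fun x => (b * (2 - d) - b * (x - h x))⁻¹) =
            fun x => b⁻¹ * (2 - d - x + h x)⁻¹ := by
          funext x
          rw [← mul_inv]
          congr 1
          ring
        rw [h2, integral_const_mul]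
        calc b⁻¹ * ∫ x, (2 - d - x + h x)⁻¹ ∂sc ≤ b⁻¹ * (b * y) :=
              mul_le_mul_of_nonneg_left (ii.trans hey) (inv_pos.2 hb).le
          _ = y := by field_simp
    have h2 : 2 * b ≤ stInv (muS b 0 0) y := le_stInv hy fun z hz => (two_lt hz).le
    linarith

end Vale.Agent.P146.R2.H793.H3
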