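import Vale.Agent.P146.R2.H952.XDef
import Vale.Agent.P146.R3.H49.SC

/-!
# P146, row H1: the Stieltjes transform near the edge
-/

open MeasureTheory Set Filter Topology

namespace Vale.Agent.P146.R2.H793.X

open Vale.Agent.P146.R3 Vale.Agent.P146.R3.H49

/-- the denominator -/
lemma den_pos {c ε x hx : ℝ} (hc : 0 < c) (hc1 : c ≤ 1) (hε : 0 < ε) (hx2 : x ≤ 2)
    (h0 : 0 ≤ hx) (hedge : 2 - ε ≤ x → c * ε ≤ hx) : 0 < 2 - c / 40 * ε - x + hx := by
  by_cases h : 2 - ε ≤ x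
  · have h1 := hedge h
    nlinarith [mul_pos hc hε]
  · rw [not_le] at h
    nlinarith [mul_pos hc hε, mul_le_mul_of_nonneg_right hc1 hε.le]

/-- the gain near the edge -/
lemma near {c ε u hx : ℝ} (hc : 0 < c) (hc1 : c ≤ 1) (hε : 0 < ε) (hu : 0 ≤ u) (hu2 : u ≤ ε)
    (hedge : c * ε ≤ hx) : u * (u - c / 40 * ε + hx)⁻¹ ≤ 1 - 39 / 80 * c := by
  have h1 : 0 < 39 / 40 * c * ε := by positivity
  have h2 : 0 < u + 39 / 40 * c * ε := by linarith
  have h3 : u + 39 / 40 * c * ε ≤ u - c / 40 * ε + hx := by linarith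
  have h4 : u * (u - c / 40 * ε + hx)⁻¹ ≤ u * (u + 39 / 40 * c * ε)⁻¹ :=
    mul_le_mul_of_nonneg_left (inv_anti₀ h2 h3) hu
  refine h4.trans ?_
  rw [← div_eq_mul_inv, div_le_iff₀ h2]
  nlinarith [mul_nonneg hu hc.le, mul_le_mul_of_nonneg_left hu2 hc.le,
    mul_le_mul_of_nonneg_left hc1 h1.le, mul_pos hc hc, mul_pos (mul_pos hc hc) hε]

/-- no gain -/
lemma mid {c ε u hx : ℝ} (hc : 0 < c) (hε : 0 < ε) (hu : 0 ≤ u)
    (hedge : c * ε ≤ hx) : u * (u - c / 40 * ε + hx)⁻¹ ≤ 1 := by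
  have h1 : 0 < 39 / 40 * c * ε := by positivity
  have h2 : 0 < u - c / 40 * ε + hx := by linarith
  rw [← div_eq_mul_inv, div_le_iff₀ h2]
  linarith

/-- the loss far from the edge -/
lemma far {c ε u hx : ℝ} (hc : 0 < c) (hc1 : c ≤ 1) (hε : 0 < ε) (hu : ε < u)
    (h0 : 0 ≤ hx) : u * (u - c / 40 * ε + hx)⁻¹ ≤ 1 + c / 39 * (ε * u⁻¹) := by
  have hu0 : 0 < u := hε.trans hu
  have hcu : c * ε ≤ u := by nlinarith
  have h1 : 0 < u - c / 40 * ε := by linarith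
  have h2 : u * (u - c / 40 * ε + hx)⁻¹ ≤ u * (u - c / 40 * ε)⁻¹ :=
    mul_le_mul_of_nonneg_left (inv_anti₀ h1 (by linarith)) hu0.le
  refine h2.trans ?_
  rw [← div_eq_mul_inv, div_le_iff₀ h1]
  have h3 : (1 + c / 39 * (ε * u⁻¹)) * (u - c / 40 * ε) =
      u - c / 40 * ε + c / 39 * ε - c / 39 * (ε * u⁻¹) * (c / 40 * ε) := by
    field_simp
    ring
  rw [h3]
  have h4 : ε * u⁻¹ ≤ 1 := by
    rw [← div_eq_mul_inv, div_le_one hu0]; exact hu.le
  have h5 : c / 39 * (ε * u⁻¹) * (c / 40 * ε) ≤ c / 39 * 1 * (1 / 40 * ε) := by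
    have : 0 ≤ ε * u⁻¹ := by positivity
    gcongr
  nlinarith [mul_pos hc hε]

lemma u_le (θ : ℝ) : 2 - 2 * Real.cos θ ≤ θ ^ 2 := by
  have := Real.one_sub_sq_div_two_le_cos (x := θ)
  linarith

lemma le_u {θ : ℝ} (h0 : 0 ≤ θ) (h1 : θ ≤ Real.pi) :
    4 / Real.pi ^ 2 * θ ^ 2 ≤ 2 - 2 * Real.cos θ := by
  have hp := Real.pi_pos
  have h2 := Real.mul_le_sin (x := θ / 2) (by linarith) (by linarith)
  have h3 : 2 - 2 * Real.cos θ = 4 * Real.sin (θ / 2) ^ 2 := by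
    have h4 : Real.cos θ = 1 - 2 * Real.sin (θ / 2) ^ 2 := by
      have h5 := Real.cos_two_mul (θ / 2)
      have h6 := Real.sin_sq_add_cos_sq (θ / 2)
      have h7 : 2 * (θ / 2) = θ := by ring
      rw [h7] at h5
      linarith
    linarith
  have h4 : 0 ≤ 2 / Real.pi * (θ / 2) := by positivity
  have h5 : (2 / Real.pi * (θ / 2)) ^ 2 ≤ Real.sin (θ / 2) ^ 2 := pow_le_pow_left₀ h4 h2 2
  have h6 : 4 * (2 / Real.pi * (θ / 2)) ^ 2 = 4 / Real.pi ^ 2 * θ ^ 2 := by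
    field_simp
  linarith

theorem stH1 : H952.X.StH1 := by
  intro c hc hc1
  refine ⟨c / 40, c / 10, by positivity, by linarith, by positivity, ?_⟩
  intro ε hε hε1 h hcont h0 hedge
  have hp := Real.pi_pos
  have hp3 := Real.pi_gt_three
  have hp4 := Real.pi_lt_d2
  obtain ⟨s, hs⟩ : ∃ s, s = √ε := ⟨_, rfl⟩
  have hs0 : 0 < s := by rw [hs]; exact Real.sqrt_pos.2 hε
  have hse : ε = s ^ 2 := by rw [hs, Real.sq_sqrt hε.le]
  have hs1 : s ≤ 1 := by nlinarith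
  rw [← hs]
  have hmeas : Measurable fun x => (2 - c / 40 * ε - x + h x)⁻¹ :=
    ((measurable_const.sub measurable_id).add hcont.measurable).inv
  rw [H49.integral_sc hmeas]
  have hden : ∀ x ∈ Icc (-2 : ℝ) 2, 0 < 2 - c / 40 * ε - x + h x := fun x hx =>
    den_pos hc hc1 hε hx.2 (h0 x hx) fun hx2 => hedge x ⟨hx2, hx.2⟩
  have hmem : ∀ θ : ℝ, 2 * Real.cos θ ∈ Icc (-2 : ℝ) 2 := fun θ =>
    ⟨by linarith [Real.neg_one_le_cos θ], by linarith [Real.cos_le_one θ]⟩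
  obtain ⟨G, hG⟩ : ∃ G : ℝ → ℝ, G = fun θ => 2 / Real.pi * Real.sin θ ^ 2 *
      (2 - c / 40 * ε - 2 * Real.cos θ + h (2 * Real.cos θ))⁻¹ := ⟨_, rfl⟩
  have hGc : Continuous G := by
    rw [hG]
    refine Continuous.mul (by fun_prop) (Continuous.inv₀ (by fun_prop) fun θ => ?_)
    exact (hden _ (hmem θ)).ne'
  have hGe : ∀ θ, G θ = 2 / Real.pi * ((1 + Real.cos θ) / 2) *
      ((2 - 2 * Real.cos θ) * ((2 - 2 * Real.cos θ) - c / 40 * ε + h (2 * Real.cos θ))⁻¹) := by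
    intro θ
    rw [hG]
    have h1 : Real.sin θ ^ 2 = (1 - Real.cos θ) * (1 + Real.cos θ) := by
      have := Real.sin_sq_add_cos_sq θ
      nlinarith
    have h2 : 2 - c / 40 * ε - 2 * Real.cos θ + h (2 * Real.cos θ) =
      (2 - 2 * Real.cos θ) - c / 40 * ε + h (2 * Real.cos θ) := by ring
    simp only [h1, h2]
    ring
  have hC0 : ∀ θ : ℝ, 0 ≤ 2 / Real.pi * ((1 + Real.cos θ) / 2) := fun θ => by
    have := Real.neg_one_le_cos θ
    have h1 : 0 ≤ (1 + Real.cos θ) / 2 := by linarith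
    positivity
  have hu0 : ∀ θ : ℝ, 0 ≤ 2 - 2 * Real.cos θ := fun θ => by linarith [Real.cos_le_one θ]
  -- near the edge
  have hA : ∀ θ ∈ Icc (0 : ℝ) s, G θ ≤ 2 / Real.pi * ((1 + Real.cos θ) / 2 - 117 / 320 * c) := by
    intro θ hθ
    have h1 : θ ^ 2 ≤ ε := by rw [hse]; exact pow_le_pow_left₀ hθ.1 hθ.2 2
    have h2 := u_le θ
    rw [hGe]
    have h3 := near hc hc1 hε (hu0 θ) (h2.trans h1)
      (hedge (2 * Real.cos θ) ⟨by linarith, (hmem θ).2⟩)
    have h4 := mul_le_mul_of_nonneg_left h3 (hC0 θ)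
    refine h4.trans ?_
    have h5 : 3 / 4 ≤ (1 + Real.cos θ) / 2 := by
      have : θ ^ 2 ≤ 1 := h1.trans hε1
      linarith
    have h6 : 0 < 2 / Real.pi := by positivity
    have h7 : (1 + Real.cos θ) / 2 * (1 - 39 / 80 * c) ≤ (1 + Real.cos θ) / 2 - 117 / 320 * c := by
      nlinarith [mul_le_mul_of_nonneg_left h5 hc.le]
    calc 2 / Real.pi * ((1 + Real.cos θ) / 2) * (1 - 39 / 80 * c)
        = 2 / Real.pi * ((1 + Real.cos θ) / 2 * (1 - 39 / 80 * c)) := by ring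
      _ ≤ _ := mul_le_mul_of_nonneg_left h7 h6.le
  -- far from the edge
  have hB : ∀ θ ∈ Icc s Real.pi, G θ ≤ 2 / Real.pi * ((1 + Real.cos θ) / 2 +
      c / 39 * (Real.pi ^ 2 / 4) * ε * θ ^ (-2 : ℤ)) := by
    intro θ hθ
    have hθ0 : 0 < θ := hs0.trans_le hθ.1
    have h6 : 0 < 2 / Real.pi := by positivity
    have hz : θ ^ (-2 : ℤ) = (θ ^ 2)⁻¹ := by
      rw [zpow_neg]; norm_cast
    have hnn : 0 ≤ c / 39 * (Real.pi ^ 2 / 4) * ε * θ ^ (-2 : ℤ) := by positivity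
    rw [hGe]
    by_cases hue : 2 - 2 * Real.cos θ ≤ ε
    · have h3 := mid hc hε (hu0 θ) (hedge (2 * Real.cos θ) ⟨by linarith, (hmem θ).2⟩)
      have h4 := mul_le_mul_of_nonneg_left h3 (hC0 θ)
      refine h4.trans ?_
      rw [mul_one]
      exact mul_le_mul_of_nonneg_left (by linarith) h6.le
    · rw [not_le] at hue
      have h3 := far hc hc1 hε hue (h0 _ (hmem θ))
      have h4 := mul_le_mul_of_nonneg_left h3 (hC0 θ)
      refine h4.trans ?_
      have h5 := le_u hθ0.le hθ.2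
      have h7 : (2 - 2 * Real.cos θ)⁻¹ ≤ Real.pi ^ 2 / 4 * (θ ^ 2)⁻¹ := by
        have h8 : 0 < 4 / Real.pi ^ 2 * θ ^ 2 := by positivity
        calc (2 - 2 * Real.cos θ)⁻¹ ≤ (4 / Real.pi ^ 2 * θ ^ 2)⁻¹ := inv_anti₀ h8 h5
          _ = Real.pi ^ 2 / 4 * (θ ^ 2)⁻¹ := by field_simp
      have h9 : (1 + Real.cos θ) / 2 ≤ 1 := by linarith [Real.cos_le_one θ]
      have h10 : 0 ≤ (1 + Real.cos θ) / 2 := by linarith [Real.neg_one_le_cos θ]
      have h11 : c / 39 * (ε * (2 - 2 * Real.cos θ)⁻¹) ≤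
          c / 39 * (Real.pi ^ 2 / 4) * ε * θ ^ (-2 : ℤ) := by
        rw [hz]
        calc c / 39 * (ε * (2 - 2 * Real.cos θ)⁻¹)
            ≤ c / 39 * (ε * (Real.pi ^ 2 / 4 * (θ ^ 2)⁻¹)) := by gcongr
          _ = _ := by ring
      have h12 : 0 ≤ c / 39 * (ε * (2 - 2 * Real.cos θ)⁻¹) := by
        have := hu0 θ
        positivity
      have h13 : (1 + Real.cos θ) / 2 * (1 + c / 39 * (ε * (2 - 2 * Real.cos θ)⁻¹)) ≤
          (1 + Real.cos θ) / 2 + c / 39 * (Real.pi ^ 2 / 4) * ε * θ ^ (-2 : ℤ) := by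
        have := mul_le_mul_of_nonneg_right h9 h12
        linarith
      calc 2 / Real.pi * ((1 + Real.cos θ) / 2) * (1 + c / 39 * (ε * (2 - 2 * Real.cos θ)⁻¹))
          = 2 / Real.pi * ((1 + Real.cos θ) / 2 *
              (1 + c / 39 * (ε * (2 - 2 * Real.cos θ)⁻¹))) := by ring
        _ ≤ _ := mul_le_mul_of_nonneg_left h13 h6.le
  have hsp : s ≤ Real.pi := by linarith
  have e1 : ∫ θ in (0 : ℝ)..Real.pi, 2 / Real.pi * Real.sin θ ^ 2 *
      (2 - c / 40 * ε - 2 * Real.cos θ + h (2 * Real.cos θ))⁻¹ =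
      (∫ θ in (0 : ℝ)..s, G θ) + ∫ θ in s..Real.pi, G θ := by
    rw [intervalIntegral.integral_add_adjacent_intervals (hGc.intervalIntegrable _ _)
      (hGc.intervalIntegrable _ _), hG]
  rw [e1]
  have i1 : ∫ θ in (0 : ℝ)..s, G θ ≤
      ∫ θ in (0 : ℝ)..s, 2 / Real.pi * ((1 + Real.cos θ) / 2 - 117 / 320 * c) :=
    intervalIntegral.integral_mono_on hs0.le (hGc.intervalIntegrable _ _)
      (Continuous.intervalIntegrable (by fun_prop) _ _) hA
  have hzc : ContinuousOn (fun θ : ℝ => θ ^ (-2 : ℤ)) (uIcc s Real.pi) := by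
    intro θ hθ
    rw [uIcc_of_le hsp] at hθ
    exact (continuousAt_zpow₀ θ (-2) (Or.inl (hs0.trans_le hθ.1).ne')).continuousWithinAt
  have i2 : ∫ θ in s..Real.pi, G θ ≤ ∫ θ in s..Real.pi, 2 / Real.pi * ((1 + Real.cos θ) / 2 +
      c / 39 * (Real.pi ^ 2 / 4) * ε * θ ^ (-2 : ℤ)) := by
    refine intervalIntegral.integral_mono_on hsp (hGc.intervalIntegrable _ _)
      (ContinuousOn.intervalIntegrable ?_) hB
    exact continuousOn_const.mul ((Continuous.continuousOn (by fun_prop)).add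
      (continuousOn_const.mul hzc))
  have j1 : ∫ θ in (0 : ℝ)..s, 2 / Real.pi * ((1 + Real.cos θ) / 2 - 117 / 320 * c) =
      2 / Real.pi * ((s + Real.sin s) / 2 - 117 / 320 * c * s) := by
    rw [intervalIntegral.integral_const_mul, intervalIntegral.integral_sub
      (Continuous.intervalIntegrable (by fun_prop) _ _)
      (Continuous.intervalIntegrable (by fun_prop) _ _), intervalIntegral.integral_div,
      intervalIntegral.integral_add (Continuous.intervalIntegrable (by fun_prop) _ _)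
      (Continuous.intervalIntegrable (by fun_prop) _ _)]
    simp only [intervalIntegral.integral_const, integral_cos, smul_eq_mul, sub_zero, mul_one,
      Real.sin_zero]
    ring
  have j2 : ∫ θ in s..Real.pi, 2 / Real.pi * ((1 + Real.cos θ) / 2 +
      c / 39 * (Real.pi ^ 2 / 4) * ε * θ ^ (-2 : ℤ)) =
      2 / Real.pi * ((Real.pi - s - Real.sin s) / 2 +
        c / 39 * (Real.pi ^ 2 / 4) * ε * (s⁻¹ - Real.pi⁻¹)) := by
    have hz : ∫ θ in s..Real.pi, θ ^ (-2 : ℤ) = s⁻¹ - Real.pi⁻¹ := by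
      rw [integral_zpow (Or.inr ⟨by norm_num, by
        rw [uIcc_of_le hsp]
        exact fun hh => absurd hh.1 (not_le.2 hs0)⟩)]
      norm_num
      ring
    have hint1 : IntervalIntegrable (fun θ : ℝ => (1 + Real.cos θ) / 2) volume s Real.pi :=
      Continuous.intervalIntegrable (by fun_prop) _ _
    have hint2 : IntervalIntegrable
        (fun θ : ℝ => c / 39 * (Real.pi ^ 2 / 4) * ε * θ ^ (-2 : ℤ)) volume s Real.pi :=
      ContinuousOn.intervalIntegrable (continuousOn_const.mul hzc)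
    rw [intervalIntegral.integral_const_mul, intervalIntegral.integral_add hint1 hint2,
      intervalIntegral.integral_const_mul, hz, intervalIntegral.integral_div,
      intervalIntegral.integral_add (Continuous.intervalIntegrable (by fun_prop) _ _)
      (Continuous.intervalIntegrable (by fun_prop) _ _)]
    simp only [intervalIntegral.integral_const, integral_cos, smul_eq_mul, mul_one,
      Real.sin_pi]
    ring
  rw [j1] at i1
  rw [j2] at i2
  have k1 : ε * (s⁻¹ - Real.pi⁻¹) ≤ s := by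
    rw [hse]
    have : s ^ 2 * (s⁻¹ - Real.pi⁻¹) = s - s ^ 2 * Real.pi⁻¹ := by
      field_simp
    rw [this]
    have : 0 ≤ s ^ 2 * Real.pi⁻¹ := by positivity
    linarith
  have k2 : c / 39 * (Real.pi ^ 2 / 4) * ε * (s⁻¹ - Real.pi⁻¹) ≤ c / 39 * (Real.pi ^ 2 / 4) * s := by
    have : 0 ≤ c / 39 * (Real.pi ^ 2 / 4) := by positivity
    calc c / 39 * (Real.pi ^ 2 / 4) * ε * (s⁻¹ - Real.pi⁻¹)
        = c / 39 * (Real.pi ^ 2 / 4) * (ε * (s⁻¹ - Real.pi⁻¹)) := by ring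
      _ ≤ _ := mul_le_mul_of_nonneg_left k1 this
  have k3 : 2 / Real.pi * ((s + Real.sin s) / 2 - 117 / 320 * c * s) +
      2 / Real.pi * ((Real.pi - s - Real.sin s) / 2 + c / 39 * (Real.pi ^ 2 / 4) * s) =
      1 - c * s * (117 / 160 / Real.pi - Real.pi / 78) := by
    field_simp
    ring
  have k4 : 1 / 10 ≤ 117 / 160 / Real.pi - Real.pi / 78 := by
    have h1 : 117 / 160 / 3.15 ≤ 117 / 160 / Real.pi := by gcongr
    have h2 : (1 : ℝ) / 10 ≤ 117 / 160 / 3.15 - 3.15 / 78 := by norm_num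
    linarith
  have k5 : c * s * (1 / 10) ≤ c * s * (117 / 160 / Real.pi - Real.pi / 78) :=
    mul_le_mul_of_nonneg_left k4 (by positivity)
  have k6 : 2 / Real.pi * ((Real.pi - s - Real.sin s) / 2 +
        c / 39 * (Real.pi ^ 2 / 4) * ε * (s⁻¹ - Real.pi⁻¹)) ≤
      2 / Real.pi * ((Real.pi - s - Real.sin s) / 2 + c / 39 * (Real.pi ^ 2 / 4) * s) :=
    mul_le_mul_of_nonneg_left (by linarith) (by positivity)
  linarith

end Vale.Agent.P146.R2.H793.X
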